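import Vale.Agent.P328.Final

namespace Vale.Agent.Results.P328.Sampler

theorem result : ∃ A, Vale.Agent.P328.IsSampler A := Vale.Agent.P328.exists_sampler

end Vale.Agent.Results.P328.Sampler
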